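import Vale.Agent.Lib.P062.Root
import Vale.Agent.Lib.P062.GenA.C0
import Vale.Agent.Lib.P062.GenA.C1
import Vale.Agent.Lib.P062.GenA.C2
import Vale.Agent.Lib.P062.GenA.C3
import Vale.Agent.Lib.P062.GenA.C4
import Vale.Agent.Lib.P062.GenA.C5
import Vale.Agent.Lib.P062.GenA.C6
import Vale.Agent.Lib.P062.GenA.C7
import Vale.Agent.Lib.P062.GenA.C8

namespace Vale.Agent.Lib.P062.GenA
open Chk

theorem g0 : ∀ j, j < (nat_lit 265) → Good tbl j :=
  chunk_extend (fun j hj => absurd hj (Nat.not_lt_zero j)) ck0 (by decide +kernel)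

theorem g1 : ∀ j, j < (nat_lit 478) → Good tbl j :=
  chunk_extend g0 ck1 (by decide +kernel)

theorem g2 : ∀ j, j < (nat_lit 742) → Good tbl j :=
  chunk_extend g1 ck2 (by decide +kernel)

theorem g3 : ∀ j, j < (nat_lit 1020) → Good tbl j :=
  chunk_extend g2 ck3 (by decide +kernel)

theorem g4 : ∀ j, j < (nat_lit 1270) → Good tbl j :=
  chunk_extend g3 ck4 (by decide +kernel)

theorem g5 : ∀ j, j < (nat_lit 1542) → Good tbl j :=
  chunk_extend g4 ck5 (by decide +kernel)

theorem g6 : ∀ j, j < (nat_lit 1819) → Good tbl j :=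
  chunk_extend g5 ck6 (by decide +kernel)

theorem g7 : ∀ j, j < (nat_lit 2016) → Good tbl j :=
  chunk_extend g6 ck7 (by decide +kernel)

theorem g8 : ∀ j, j < (nat_lit 2030) → Good tbl j :=
  chunk_extend g7 ck8 (by decide +kernel)

theorem rows : ∀ j, j < (nat_lit 2030) → RowValid (find tbl j) := rows_valid g8

theorem hj0 : (nat_lit 2029) < (nat_lit 2030) := by decide +kernel

theorem h10 : taskOK tbl (1, 0, nat_lit 2029) = true := by decide +kernel

/-- The reply next to the opening stone loses. -/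
theorem forces10 : ∃ n, MakerForces n {c0} {((13 + ((1 : ℕ) : ℕ) : ℤ), (13 + ((0 : ℕ) : ℕ) : ℤ))} :=
  task_forces (t := (1, 0, nat_lit 2029)) (rows _ hj0) h10 (by norm_num) (by norm_num) (Or.inl (by norm_num))

end Vale.Agent.Lib.P062.GenA
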