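import Vale.Agent.Lib.P062.GenA.Tb0
import Vale.Agent.Lib.P062.GenA.Tb1

namespace Vale.Agent.Lib.P062.GenA
open Chk

def tbl : BT := BT.node (BT.node (BT.node (BT.node (tp0) (tp8)) (BT.node (tp4) (tp12))) (BT.node (BT.node (tp2) (tp10)) (BT.node (tp6) (tp14)))) (BT.node (BT.node (BT.node (tp1) (tp9)) (BT.node (tp5) (tp13))) (BT.node (BT.node (tp3) (tp11)) (BT.node (tp7) (tp15))))

end Vale.Agent.Lib.P062.GenA
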